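import Mathlib
import Vale.Agent.P309.Defs
import Vale.Agent.P309.Main

open MeasureTheory

namespace Vale.Agent.Results.P309.LowerBound

open Vale.Agent.P309

/-- For every `A > 0`, one-pass learners with at most `A d²` bits of memory that succeed at
accuracy `ε ≤ 1/10` need `Ω_A(d log(1/ε))` noiseless Gaussian samples. -/
theorem result : ∀ A : ℝ, 0 < A → ∃ c : ℝ, 0 < c ∧ ∃ d₀ : ℕ, ∀ d : ℕ, d₀ ≤ d →
    ∀ ε : ℝ, 0 < ε → ε ≤ 1 / 10 → ∀ M N T : ℕ, (M : ℝ) ≤ A * (d : ℝ) ^ 2 → N ≤ 2 ^ M →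
      ∀ L : Learner (EuclideanSpace ℝ (Fin d)) (Fin N),
        2 / 3 ≤ L.successProb T ε → c * d * Real.log (1 / ε) ≤ T := by
  intro A _
  obtain ⟨c, hc, h⟩ := main A
  exact ⟨c, hc, 16, fun d hd => h d hd _ (by simp)⟩

end Vale.Agent.Results.P309.LowerBound
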